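import Mathlib

namespace Vale.Agent.Lib.P072

open Set

/-- A finite reaction network on `d` species: a finite set `C` of complexes in `ℕ^d` and a finite
set `R` of reactions `(y, y')` between distinct complexes. -/
structure Network (d : ℕ) where
  C : Finset (Fin d → ℕ)
  R : Finset ((Fin d → ℕ) × (Fin d → ℕ))
  mem : ∀ r ∈ R, r.1 ∈ C ∧ r.2 ∈ C ∧ r.1 ≠ r.2

variable {d : ℕ}

/-- `y → y'` is a reaction of the network. -/
def Network.Step (N : Network d) (y y' : Fin d → ℕ) : Prop := (y, y') ∈ N.R

/-- Weak reversibility: for every reaction `y → y'` there is a directed path from `y'` to `y`. -/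
def Network.WeaklyReversible (N : Network d) : Prop :=
  ∀ r ∈ N.R, Relation.ReflTransGen N.Step r.2 r.1

/-- The reaction vector `y' - y` of the reaction `y → y'`. -/
def rvec (r : (Fin d → ℕ) × (Fin d → ℕ)) : Fin d → ℝ := fun i => (r.2 i : ℝ) - (r.1 i : ℝ)

/-- The monomial `x^y`. -/
def mon (y : Fin d → ℕ) (x : Fin d → ℝ) : ℝ := ∏ i, x i ^ y i

/-- The mass-action vector field with rate constants `k`. -/
noncomputable def Network.field (N : Network d) (k : (Fin d → ℕ) × (Fin d → ℕ) → ℝ)
    (x : Fin d → ℝ) : Fin d → ℝ :=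
  ∑ r ∈ N.R, (k r * mon r.1 x) • rvec r

/-- The stoichiometric subspace. -/
def Network.S (N : Network d) : Submodule ℝ (Fin d → ℝ) :=
  Submodule.span ℝ (rvec '' (N.R : Set ((Fin d → ℕ) × (Fin d → ℕ))))

/-- The positive stoichiometric class of `c`. -/
def Network.posClass (N : Network d) (c : Fin d → ℝ) : Set (Fin d → ℝ) :=
  {x | (∀ i, 0 < x i) ∧ x - c ∈ N.S}

/-- Permanence on the positive stoichiometric class of `c`: from every point of the class there is
a solution on `[0, ∞)`, it is positive, and every solution on any `[0, τ)` with the same initial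
value coincides with it; and there is a compact subset `K` of the class which every solution
starting in the class enters and never leaves after some time. -/
def Network.PermanentOn (N : Network d) (k : (Fin d → ℕ) × (Fin d → ℕ) → ℝ)
    (c : Fin d → ℝ) : Prop :=
  (∀ x₀ ∈ N.posClass c, ∃ x : ℝ → Fin d → ℝ, x 0 = x₀ ∧
      IsIntegralCurveOn x (fun _ => N.field k) (Ici 0) ∧ (∀ t, 0 ≤ t → ∀ i, 0 < x t i) ∧
      ∀ τ : ℝ, ∀ z : ℝ → Fin d → ℝ, z 0 = x₀ →
        IsIntegralCurveOn z (fun _ => N.field k) (Ico 0 τ) → EqOn z x (Ico 0 τ)) ∧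
  ∃ K : Set (Fin d → ℝ), IsCompact K ∧ K ⊆ N.posClass c ∧
    ∀ x : ℝ → Fin d → ℝ, x 0 ∈ N.posClass c →
      IsIntegralCurveOn x (fun _ => N.field k) (Ici 0) → ∃ T : ℝ, ∀ t, T ≤ t → x t ∈ K

/-- Every linkage class lies on a line, and the directions of the lines are parallel or have
disjoint supports: there are vectors `v 0, …, v (m-1)` with pairwise disjoint supports and a
labelling `κ` of the complexes, constant along reactions, such that each reaction vector is a
multiple of the vector whose label its complexes carry. -/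
def Network.HasSeparatedLines (N : Network d) : Prop :=
  ∃ (m : ℕ) (v : Fin m → Fin d → ℝ) (κ : (Fin d → ℕ) → Fin m),
    (∀ j j', j ≠ j' → ∀ i, v j i = 0 ∨ v j' i = 0) ∧
    ∀ r ∈ N.R, κ r.1 = κ r.2 ∧ ∃ a : ℝ, rvec r = a • v (κ r.1)

end Vale.Agent.Lib.P072
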