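import Vale.Agent.Lib.P072.Main

namespace Vale.Agent.Lib.P072

open Set Filter Topology

variable {d : ℕ}

theorem permanent_core {N : Network d} {k : (Fin d → ℕ) × (Fin d → ℕ) → ℝ} {m : ℕ}
    {v : Fin m → Fin d → ℝ} {κ : (Fin d → ℕ) → Fin m} {lam : (Fin d → ℕ) × (Fin d → ℕ) → ℝ}
    (hWR : N.WeaklyReversible) (hk : ∀ r ∈ N.R, 0 < k r)
    (hκ : ∀ r ∈ N.R, κ r.1 = κ r.2)
    (hlam : ∀ r ∈ N.R, rvec r = lam r • v (κ r.1))
    (hdisj : ∀ j j', j ≠ j' → ∀ i, v j i = 0 ∨ v j' i = 0)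
    (hact : ∀ j, (∃ r ∈ N.R, κ r.1 = j) ∨ v j = 0)
    (c : Fin d → ℝ) (hc : ∀ i, 0 < c i) : N.PermanentOn k c := by
  obtain ⟨Θ1, hΘ1, h1⟩ := sign_neg hWR hk hκ hlam
  obtain ⟨Θ2, hΘ2, h2⟩ := sign_pos hWR hk hκ hlam
  set Θ : ℝ := max Θ1 Θ2 with hΘdef
  have hΘ : 0 < Θ := lt_of_lt_of_le hΘ1 (le_max_left _ _)
  have hactive : ∀ j u, ell (v j) u ≠ 0 → ∃ r ∈ N.R, κ r.1 = j := by
    intro j u h
    rcases hact j with h' | h'
    · exact h'
    · exfalso
      apply h
      simp [ell, h']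
  have hneg : ∀ j u, Θ ≤ ell (v j) u → hco N k κ lam j (ex u) < 0 := fun j u h =>
    h1 j u (hactive j u (by linarith)) (le_trans (le_max_left _ _) h)
  have hpos : ∀ j u, ell (v j) u ≤ -Θ → 0 < hco N k κ lam j (ex u) := fun j u h =>
    h2 j u (hactive j u (by linarith)) (by linarith [le_max_right Θ1 Θ2])
  set γ : Fin d → ℝ := fun i => Real.log (c i) with hγdef
  have hγ : ex γ = c := by
    funext i
    simp [ex, hγdef, Real.exp_log (hc i)]
  obtain ⟨B0, hB0, hB⟩ := coord_bound hdisj γ Θ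
  set Ku : Set (Fin d → ℝ) :=
    {u | (∀ i, |u i - γ i| ≤ B0) ∧ ex u - c ∈ N.S ∧ ∀ j, |ell (v j) u| ≤ Θ} with hKudef
  have hKu : IsCompact Ku := by
    apply Metric.isCompact_of_isClosed_isBounded
    · have e : Ku = (⋂ i, {u : Fin d → ℝ | |u i - γ i| ≤ B0}) ∩
          (((fun u => ex u - c) ⁻¹' (N.S : Set (Fin d → ℝ))) ∩
            ⋂ j, {u : Fin d → ℝ | |ell (v j) u| ≤ Θ}) := by
        ext u
        simp [hKudef]
      rw [e]
      refine IsClosed.inter (isClosed_iInter fun i => isClosed_le (by fun_prop) continuous_const)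
        (IsClosed.inter ?_ (isClosed_iInter fun j =>
          isClosed_le (continuous_ell _).abs continuous_const))
      exact (N.S.closed_of_finiteDimensional).preimage
        (contDiff_ex.continuous.sub continuous_const)
    · refine (Metric.isBounded_closedBall (x := γ) (r := B0)).subset fun u hu => ?_
      rw [Metric.mem_closedBall, dist_pi_le_iff hB0]
      intro i
      rw [Real.dist_eq]
      exact hu.1 i
  have hcon : ∀ x0 ∈ N.posClass c, ∃ x : ℝ → Fin d → ℝ, x 0 = x0 ∧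
      (∀ t, 0 ≤ t → HasDerivAt x (N.field k (x t)) t) ∧ (∀ t i, 0 < x t i) ∧
      ∃ T : ℝ, ∀ t, T ≤ t → x t ∈ ex '' Ku := by
    intro x0 hx0
    set u0 : Fin d → ℝ := fun i => Real.log (x0 i) with hu0def
    have hu0 : ex u0 = x0 := by
      funext i
      simp [ex, hu0def, Real.exp_log (hx0.1 i)]
    obtain ⟨u, hu0', hder, hS, T, hT⟩ := construct (k := k) hdisj hlam hΘ hneg hpos γ u0
      (by rw [hu0, hγ]; exact hx0.2)
    refine ⟨fun t => ex (u t), by simp [hu0', hu0], hder, fun t i => Real.exp_pos _, T,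
      fun t ht => ⟨u t, ⟨?_, ?_, hT t ht⟩, rfl⟩⟩
    · exact hB (u t) (S_le_span hlam (hS t)) (hT t ht)
    · rw [← hγ]; exact hS t
  have hLip : LocallyLipschitz (N.field k) := (contDiff_field N k).locallyLipschitz
  have hIC : ∀ x : ℝ → Fin d → ℝ, (∀ t, 0 ≤ t → HasDerivAt x (N.field k (x t)) t) →
      IsIntegralCurveOn x (fun _ => N.field k) (Ici 0) :=
    fun x h t ht => (h t ht).hasDerivWithinAt
  constructor
  · intro x0 hx0
    obtain ⟨x, hx0', hder, hpos', -⟩ := hcon x0 hx0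
    refine ⟨x, hx0', hIC x hder, fun t _ i => hpos' t i, fun τ z hz0 hz => ?_⟩
    exact unique_Ico hLip hz ((hIC x hder).mono Ico_subset_Ici_self) (hz0.trans hx0'.symm)
  · refine ⟨ex '' Ku, hKu.image contDiff_ex.continuous, ?_, ?_⟩
    · rintro _ ⟨u, hu, rfl⟩
      exact ⟨fun i => Real.exp_pos _, hu.2.1⟩
    · intro z hz0 hz
      obtain ⟨x, hx0', hder, -, T, hT⟩ := hcon (z 0) hz0
      refine ⟨max T 0, fun t ht => ?_⟩
      have h3 : z t = x t := unique_Ico hLip (τ := t + 1) (hz.mono Ico_subset_Ici_self)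
        ((hIC x hder).mono Ico_subset_Ici_self) hx0'.symm
        ⟨le_trans (le_max_right _ _) ht, by linarith⟩
      rw [h3]
      exact hT t (le_trans (le_max_left _ _) ht)

/-- Weakly reversible networks whose linkage classes lie on lines with parallel or disjointly
supported directions are permanent on every positive stoichiometric class. -/
theorem permanent_of_separatedLines (N : Network d) (k : (Fin d → ℕ) × (Fin d → ℕ) → ℝ)
    (hWR : N.WeaklyReversible) (hk : ∀ r ∈ N.R, 0 < k r) (hL : N.HasSeparatedLines)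
    (c : Fin d → ℝ) (hc : ∀ i, 0 < c i) : N.PermanentOn k c := by
  classical
  obtain ⟨m, v, κ, hdisj, h⟩ := hL
  have hκ : ∀ r ∈ N.R, κ r.1 = κ r.2 := fun r hr => (h r hr).1
  have h2 : ∀ r ∈ N.R, ∃ a : ℝ, rvec r = a • v (κ r.1) := fun r hr => (h r hr).2
  choose! lam hlam using h2
  refine permanent_core (v := fun j => if ∃ r ∈ N.R, κ r.1 = j then v j else 0) (lam := lam)
    hWR hk hκ (fun r hr => ?_) (fun j j' hjj' i => ?_) (fun j => ?_) c hc
  · rw [if_pos ⟨r, hr, rfl⟩]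
    exact hlam r hr
  · by_cases h1 : ∃ r ∈ N.R, κ r.1 = j
    · by_cases h2 : ∃ r ∈ N.R, κ r.1 = j'
      · simp only [if_pos h1, if_pos h2]
        exact hdisj j j' hjj' i
      · right
        simp only [if_neg h2, Pi.zero_apply]
    · left
      simp only [if_neg h1, Pi.zero_apply]
  · by_cases h1 : ∃ r ∈ N.R, κ r.1 = j
    · exact Or.inl h1
    · right
      simp only [if_neg h1]

end Vale.Agent.Lib.P072
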