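import Vale.Agent.Lib.P072.Sign

namespace Vale.Agent.Lib.P072

open Set

variable {d : ℕ}

/-- The weight `∑ i, (w i)^2 * exp (-u i)`. -/
noncomputable def qw (w u : Fin d → ℝ) : ℝ := ∑ i, (w i) ^ 2 * Real.exp (-u i)

/-- The mass-action field in logarithmic coordinates. -/
noncomputable def logField (N : Network d) (k : (Fin d → ℕ) × (Fin d → ℕ) → ℝ)
    (u : Fin d → ℝ) : Fin d → ℝ :=
  fun i => Real.exp (-u i) * N.field k (ex u) i

lemma field_apply (N : Network d) (k : (Fin d → ℕ) × (Fin d → ℕ) → ℝ) (x : Fin d → ℝ)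
    (i : Fin d) : N.field k x i = ∑ r ∈ N.R, k r * mon r.1 x * rvec r i := by
  simp [Network.field, Finset.sum_apply]

lemma field_mem_S (N : Network d) (k : (Fin d → ℕ) × (Fin d → ℕ) → ℝ) (x : Fin d → ℝ) :
    N.field k x ∈ N.S := by
  unfold Network.field Network.S
  refine Submodule.sum_mem _ fun r hr => Submodule.smul_mem _ _ (Submodule.subset_span ?_)
  exact mem_image_of_mem _ hr

lemma contDiff_mon (y : Fin d → ℕ) : ContDiff ℝ 1 (mon y) := by
  unfold mon
  exact contDiff_prod fun i _ => (contDiff_apply ℝ ℝ i).pow _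

lemma contDiff_field (N : Network d) (k : (Fin d → ℕ) × (Fin d → ℕ) → ℝ) :
    ContDiff ℝ 1 (N.field k) := by
  unfold Network.field
  exact ContDiff.sum fun r _ => (contDiff_const.mul (contDiff_mon r.1)).smul contDiff_const

lemma contDiff_ex : ContDiff ℝ 1 (ex : (Fin d → ℝ) → Fin d → ℝ) := by
  unfold ex
  exact contDiff_pi.2 fun i => Real.contDiff_exp.comp (contDiff_apply ℝ ℝ i)

lemma contDiff_logField (N : Network d) (k : (Fin d → ℕ) × (Fin d → ℕ) → ℝ) :
    ContDiff ℝ 1 (logField N k) := by
  unfold logField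
  refine contDiff_pi.2 fun i => ContDiff.mul ?_ ?_
  · exact Real.contDiff_exp.comp (contDiff_apply ℝ ℝ i).neg
  · exact (contDiff_apply ℝ ℝ i).comp ((contDiff_field N k).comp contDiff_ex)

lemma continuous_ell (w : Fin d → ℝ) : Continuous (ell w) := by
  unfold ell
  fun_prop

lemma continuous_qw (w : Fin d → ℝ) : Continuous (qw w) := by
  unfold qw
  fun_prop

lemma qw_nonneg (w u : Fin d → ℝ) : 0 ≤ qw w u := by
  unfold qw
  exact Finset.sum_nonneg fun i _ => mul_nonneg (sq_nonneg _) (Real.exp_pos _).le

lemma qw_pos {w u : Fin d → ℝ} (h : ell w u ≠ 0) : 0 < qw w u := by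
  have : ∃ i, w i ≠ 0 := by
    by_contra hcon
    push Not at hcon
    apply h
    simp [ell, hcon]
  obtain ⟨i, hi⟩ := this
  unfold qw
  refine Finset.sum_pos' (fun i _ => mul_nonneg (sq_nonneg _) (Real.exp_pos _).le)
    ⟨i, Finset.mem_univ _, ?_⟩
  have := Real.exp_pos (-u i)
  positivity

section

variable {N : Network d} {k : (Fin d → ℕ) × (Fin d → ℕ) → ℝ} {m : ℕ}
  {v : Fin m → Fin d → ℝ} {κ : (Fin d → ℕ) → Fin m} {lam : (Fin d → ℕ) × (Fin d → ℕ) → ℝ}

lemma continuous_hco (j : Fin m) : Continuous (fun u => hco N k κ lam j (ex u)) := by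
  unfold hco
  refine continuous_finsetSum _ fun r _ => continuous_const.mul ?_
  exact (contDiff_mon r.1).continuous.comp contDiff_ex.continuous

lemma S_le_span (hlam : ∀ r ∈ N.R, rvec r = lam r • v (κ r.1)) :
    N.S ≤ Submodule.span ℝ (range v) := by
  unfold Network.S
  rw [Submodule.span_le]
  rintro _ ⟨r, hr, rfl⟩
  rw [hlam r hr]
  exact Submodule.smul_mem _ _ (Submodule.subset_span (mem_range_self _))

/-- The form `ell (v j)` evaluated on the field in logarithmic coordinates. -/
lemma ell_logField (hdisj : ∀ j j', j ≠ j' → ∀ i, v j i = 0 ∨ v j' i = 0)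
    (hlam : ∀ r ∈ N.R, rvec r = lam r • v (κ r.1)) (j : Fin m) (u : Fin d → ℝ) :
    ell (v j) (logField N k u) = hco N k κ lam j (ex u) * qw (v j) u := by
  classical
  unfold ell logField hco qw
  simp only [field_apply]
  rw [Finset.sum_filter, Finset.sum_mul]
  simp only [Finset.mul_sum]
  rw [Finset.sum_comm]
  refine Finset.sum_congr rfl fun r hr => ?_
  have h1 : ∀ i, rvec r i = lam r * v (κ r.1) i := fun i => by
    rw [hlam r hr]; simp
  by_cases hj : κ r.1 = j
  · rw [if_pos hj]
    refine Finset.sum_congr rfl fun i _ => ?_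
    rw [h1 i, hj]; ring
  · rw [if_neg hj]
    refine Finset.sum_congr rfl fun i _ => ?_
    rw [h1 i]
    rcases hdisj _ _ hj i with h | h
    · rw [h]; ring
    · rw [h]; ring

end

lemma abs_le_abs_sum_of_same_sign {ι : Type*} [Fintype ι] (s : ℝ) (T : ι → ℝ)
    (h : ∀ i, 0 ≤ s * T i) (hs : s ≠ 0) (i : ι) : |T i| ≤ |∑ i, T i| := by
  rcases lt_or_gt_of_ne hs with hs | hs
  · have hT : ∀ i, T i ≤ 0 := fun i => by
      by_contra hcon
      push Not at hcon
      have := mul_neg_of_neg_of_pos hs hcon
      linarith [h i]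
    have h1 : ∑ i, T i ≤ T i := by
      have := Finset.single_le_sum (f := fun i => -T i) (fun i _ => by linarith [hT i])
        (Finset.mem_univ i)
      simp only [Finset.sum_neg_distrib] at this
      linarith
    rw [abs_of_nonpos (hT i), abs_of_nonpos (h1.trans (hT i))]
    linarith
  · have hT : ∀ i, 0 ≤ T i := fun i => by
      by_contra hcon
      push Not at hcon
      have := mul_neg_of_pos_of_neg hs hcon
      linarith [h i]
    have h1 : T i ≤ ∑ i, T i := Finset.single_le_sum (fun i _ => hT i) (Finset.mem_univ i)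
    rw [abs_of_nonneg (hT i), abs_of_nonneg ((hT i).trans h1)]
    exact h1

/-- On a stoichiometric class, bounds on the forms `ell (v j)` bound all log-coordinates. -/
lemma coord_bound {m : ℕ} {v : Fin m → Fin d → ℝ}
    (hdisj : ∀ j j', j ≠ j' → ∀ i, v j i = 0 ∨ v j' i = 0) (γ : Fin d → ℝ) (M : ℝ) :
    ∃ B : ℝ, 0 ≤ B ∧ ∀ u : Fin d → ℝ, ex u - ex γ ∈ Submodule.span ℝ (range v) →
      (∀ j, |ell (v j) u| ≤ M) → ∀ i, |u i - γ i| ≤ B := by
  classical
  refine ⟨∑ j, ∑ i, (|M| + |ell (v j) γ|) / |v j i|, by positivity, fun u hu hM i => ?_⟩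
  obtain ⟨s, hs⟩ := (Submodule.mem_span_range_iff_exists_fun ℝ).mp hu
  have hcoord : ∀ i, Real.exp (u i) - Real.exp (γ i) = ∑ j, s j * v j i := fun i => by
    have := congrFun hs i
    simp only [Finset.sum_apply, Pi.smul_apply, smul_eq_mul, Pi.sub_apply, ex] at this
    exact this.symm
  by_cases hi : ∀ j, v j i = 0
  · have h1 := hcoord i
    simp only [hi, mul_zero, Finset.sum_const_zero] at h1
    have h2 : u i = γ i := Real.exp_injective (by linarith)
    rw [h2, sub_self, abs_zero]
    positivity
  · push Not at hi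
    obtain ⟨j, hj⟩ := hi
    have hcoord' : ∀ i', v j i' ≠ 0 → Real.exp (u i') - Real.exp (γ i') = s j * v j i' := by
      intro i' hi'
      rw [hcoord i']
      refine Finset.sum_eq_single j (fun j' _ hj' => ?_) (fun h => absurd (Finset.mem_univ _) h)
      rcases hdisj j' j hj' i' with h | h
      · rw [h, mul_zero]
      · exact absurd h hi'
    set T : Fin d → ℝ := fun i' => v j i' * (u i' - γ i') with hT
    have hsum : ∑ i', T i' = ell (v j) u - ell (v j) γ := by
      simp only [hT, ell, ← Finset.sum_sub_distrib]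
      refine Finset.sum_congr rfl fun i' _ => by ring
    have hTi : |T i| ≤ |M| + |ell (v j) γ| := by
      by_cases hsj : s j = 0
      · have h1 := hcoord' i hj
        rw [hsj, zero_mul] at h1
        have h2 : u i = γ i := Real.exp_injective (by linarith)
        simp only [hT, h2, sub_self, mul_zero, abs_zero]
        positivity
      · have hsign : ∀ i', 0 ≤ s j * T i' := by
          intro i'
          by_cases hi' : v j i' = 0
          · simp [hT, hi']
          · have h1 := hcoord' i' hi'
            have h2 : s j * T i' = (Real.exp (u i') - Real.exp (γ i')) * (u i' - γ i') := by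
              rw [h1]; simp only [hT]; ring
            rw [h2]
            rcases le_total (u i') (γ i') with h | h
            · exact mul_nonneg_of_nonpos_of_nonpos (by linarith [Real.exp_le_exp.mpr h])
                (by linarith)
            · exact mul_nonneg (by linarith [Real.exp_le_exp.mpr h]) (by linarith)
        have h3 := abs_le_abs_sum_of_same_sign (s j) T hsign hsj i
        rw [hsum] at h3
        calc |T i| ≤ |ell (v j) u - ell (v j) γ| := h3
          _ ≤ |ell (v j) u| + |ell (v j) γ| := abs_sub _ _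
          _ ≤ |M| + |ell (v j) γ| := by
            have := (hM j).trans (le_abs_self M)
            linarith
    have hvpos : 0 < |v j i| := abs_pos.mpr hj
    have h4 : |u i - γ i| ≤ (|M| + |ell (v j) γ|) / |v j i| := by
      rw [le_div_iff₀ hvpos]
      have : |T i| = |u i - γ i| * |v j i| := by
        simp only [hT, abs_mul]; ring
      linarith
    refine h4.trans ?_
    have h5 : (|M| + |ell (v j) γ|) / |v j i| ≤ ∑ i, (|M| + |ell (v j) γ|) / |v j i| :=
      Finset.single_le_sum (f := fun i => (|M| + |ell (v j) γ|) / |v j i|)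
        (fun i _ => by positivity) (Finset.mem_univ i)
    have h6 : ∑ i, (|M| + |ell (v j) γ|) / |v j i| ≤
        ∑ j, ∑ i, (|M| + |ell (v j) γ|) / |v j i| :=
      Finset.single_le_sum (f := fun j => ∑ i, (|M| + |ell (v j) γ|) / |v j i|)
        (fun i _ => by positivity) (Finset.mem_univ j)
    exact h5.trans h6

end Vale.Agent.Lib.P072
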