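import Mathlib

namespace Vale.Agent.Lib.P072

open Set Filter Topology
open scoped NNReal

/-- A bounded globally Lipschitz autonomous field has a global solution through every point. -/
theorem global_flow {E : Type*} [NormedAddCommGroup E] [NormedSpace ℝ E] [CompleteSpace E]
    {G : E → E} {K L : ℝ≥0} (hK : LipschitzWith K G) (hL : ∀ x, ‖G x‖ ≤ L) (u0 : E) :
    ∃ u : ℝ → E, u 0 = u0 ∧ ∀ t, HasDerivAt u (G (u t)) t := by
  have h1 : ∀ T : ℝ, 0 < T → ∃ α : ℝ → E, α 0 = u0 ∧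
      ∀ t ∈ Icc (-T) T, HasDerivWithinAt α (G (α t)) (Icc (-T) T) t := by
    intro T hT
    have hmem : (0 : ℝ) ∈ Icc (-T) T := ⟨by linarith, hT.le⟩
    have hPL : IsPicardLindelof (fun _ => G) (tmin := -T) (tmax := T) ⟨0, hmem⟩ u0
        (L * ⟨T, hT.le⟩) 0 L K :=
      IsPicardLindelof.of_time_independent (fun x _ => hL x) (hK.lipschitzOnWith) (by simp; exact le_of_eq (NNReal.coe_mul L ⟨T, hT.le⟩).symm)
    exact hPL.exists_eq_forall_mem_Icc_hasDerivWithinAt₀
  choose! α hα0 hα using h1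
  have hder : ∀ T, 0 < T → ∀ t ∈ Ioo (-T) T, HasDerivAt (α T) (G (α T t)) t := by
    intro T hT t ht
    exact (hα T hT t (Ioo_subset_Icc_self ht)).hasDerivAt (Icc_mem_nhds ht.1 ht.2)
  have hcont : ∀ T, 0 < T → ContinuousOn (α T) (Icc (-T) T) := by
    intro T hT t ht
    exact (hα T hT t ht).continuousWithinAt
  have huniq : ∀ T T', 0 < T → T ≤ T' → EqOn (α T) (α T') (Icc (-T) T) := by
    intro T T' hT hTT'
    have hT' : 0 < T' := lt_of_lt_of_le hT hTT'
    have hsub : Icc (-T) T ⊆ Icc (-T') T' := Icc_subset_Icc (by linarith) hTT'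
    have hsub' : Ioo (-T) T ⊆ Ioo (-T') T' := Ioo_subset_Ioo (by linarith) hTT'
    exact ODE_solution_unique_of_mem_Icc (v := fun _ => G) (s := fun _ => univ) (K := K)
      (t₀ := 0) (fun t _ => hK.lipschitzOnWith) ⟨by linarith, hT⟩ (hcont T hT)
      (hder T hT) (fun _ _ => mem_univ _) ((hcont T' hT').mono hsub)
      (fun t ht => hder T' hT' t (hsub' ht)) (fun _ _ => mem_univ _)
      ((hα0 T hT).trans (hα0 T' hT').symm)
  have hloc : ∀ t0 t : ℝ, |t| < |t0| + 1 → α (|t| + 1) t = α (|t0| + 2) t := by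
    intro t0 t ht
    have hpos : 0 < |t| + 1 := by positivity
    refine huniq (|t| + 1) (|t0| + 2) hpos (by linarith) ⟨?_, ?_⟩
    · linarith [neg_abs_le t]
    · linarith [le_abs_self t]
  refine ⟨fun t => α (|t| + 1) t, ?_, fun t0 => ?_⟩
  · simpa using hα0 1 one_pos
  · have hT0 : 0 < |t0| + 2 := by positivity
    have hmem : t0 ∈ Ioo (-(|t0| + 2)) (|t0| + 2) :=
      ⟨by linarith [neg_abs_le t0], by linarith [le_abs_self t0]⟩
    have h2 := hder _ hT0 t0 hmem
    have h3 : α (|t0| + 1) t0 = α (|t0| + 2) t0 := hloc t0 t0 (by linarith)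
    simp only [h3]
    refine h2.congr_of_eventuallyEq ?_
    have hopen : {t : ℝ | |t| < |t0| + 1} ∈ 𝓝 t0 := by
      apply IsOpen.mem_nhds
      · exact isOpen_lt continuous_abs continuous_const
      · show |t0| < |t0| + 1
        linarith
    filter_upwards [hopen] with t ht
    exact hloc t0 t ht

/-- Barrier lemma: if `φ' ≤ 0` whenever `φ ≥ Θ`, then `φ` stays below `max Θ (φ a)`. -/
theorem barrier {φ φ' : ℝ → ℝ} {a Θ M : ℝ} (hφ : ∀ t, a ≤ t → HasDerivAt φ (φ' t) t)
    (hsign : ∀ t, a ≤ t → Θ ≤ φ t → φ' t ≤ 0) (ha : φ a ≤ M) (hM : Θ ≤ M) :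
    ∀ t, a ≤ t → φ t ≤ M := by
  intro t ht
  have key : ∀ ε : ℝ, 0 < ε → φ t ≤ M + ε * (t - a) := by
    intro ε hε
    have := image_le_of_deriv_right_lt_deriv_boundary (f := φ) (f' := φ') (a := a) (b := t)
      (B := fun s => M + ε * (s - a)) (B' := fun _ => ε)
      (fun s hs => (hφ s hs.1).continuousAt.continuousWithinAt)
      (fun s hs => (hφ s hs.1).hasDerivWithinAt) (by simpa using ha)
      (fun s => by
        have h := ((hasDerivAt_id s).sub_const a).const_mul ε
        simpa using h.const_add M)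
      (fun s hs heq => by
        have h1 : Θ ≤ φ s := by
          rw [heq]
          have : 0 ≤ ε * (s - a) := mul_nonneg hε.le (by linarith [hs.1])
          linarith
        exact lt_of_le_of_lt (hsign s hs.1 h1) hε)
    exact this ⟨ht, le_rfl⟩
  by_contra hcon
  push Not at hcon
  have hta : 0 < t - a + 1 := by linarith
  have := key ((φ t - M) / (2 * (t - a + 1))) (by apply div_pos <;> linarith)
  have h2 : (φ t - M) / (2 * (t - a + 1)) * (t - a) ≤ (φ t - M) / 2 := by
    rw [div_mul_eq_mul_div, div_le_div_iff₀ (by linarith) (by norm_num)]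
    nlinarith
  linarith

/-- Entrance lemma: if `φ' ≤ -η < 0` whenever `φ ≥ Θ`, then eventually `φ ≤ Θ`. -/
theorem entrance {φ φ' : ℝ → ℝ} {Θ η : ℝ} (hη : 0 < η)
    (hφ : ∀ t, 0 ≤ t → HasDerivAt φ (φ' t) t)
    (hsign : ∀ t, 0 ≤ t → Θ ≤ φ t → φ' t ≤ -η) :
    ∃ T : ℝ, 0 ≤ T ∧ ∀ t, T ≤ t → φ t ≤ Θ := by
  refine ⟨|φ 0 - Θ| / η, by positivity, fun t ht => ?_⟩
  have ht0 : 0 ≤ t := le_trans (by positivity) ht
  by_contra hcon
  push Not at hcon
  have hall : ∀ s ∈ Icc 0 t, Θ < φ s := by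
    intro s hs
    by_contra hs'
    push Not at hs'
    have := barrier (a := s) (Θ := Θ) (M := Θ) (fun r hr => hφ r (hs.1.trans hr))
      (fun r hr h => (hsign r (hs.1.trans hr) h).trans (by linarith)) hs' le_rfl t hs.2
    linarith
  have h1 := image_le_of_deriv_right_le_deriv_boundary (f := φ) (f' := φ') (a := 0) (b := t)
      (B := fun s => φ 0 - η * s) (B' := fun _ => -η)
      (fun s hs => (hφ s hs.1).continuousAt.continuousWithinAt)
      (fun s hs => (hφ s hs.1).hasDerivWithinAt) (by simp)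
      (by fun_prop)
      (fun s _ => by
        have h := ((hasDerivAt_id s).const_mul η).const_sub (φ 0)
        simpa using h.hasDerivWithinAt)
      (fun s hs => hsign s hs.1 (hall s (Ico_subset_Icc_self hs)).le)
  have h2 := h1 ⟨ht0, le_rfl⟩
  rw [div_le_iff₀ hη] at ht
  have h3 := le_abs_self (φ 0 - Θ)
  nlinarith

/-- A curve whose velocity lies in a subspace stays in a translate of that subspace. -/
theorem sub_mem_of_deriv_mem {E : Type*} [NormedAddCommGroup E] [NormedSpace ℝ E]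
    [FiniteDimensional ℝ E] (S : Submodule ℝ E) {x x' : ℝ → E}
    (hx : ∀ t, HasDerivAt x (x' t) t) (hS : ∀ t, x' t ∈ S) (t : ℝ) : x t - x 0 ∈ S := by
  rw [← Subspace.forall_mem_dualAnnihilator_apply_eq_zero_iff]
  intro φ hφ
  have hφ' : ∀ w ∈ S, φ w = 0 := (Submodule.mem_dualAnnihilator φ).mp hφ
  set Φ : E →L[ℝ] ℝ := LinearMap.toContinuousLinearMap φ with hΦ
  have hd : ∀ s, HasDerivAt (fun s => Φ (x s)) (Φ (x' s)) s := fun s =>
    Φ.hasFDerivAt.comp_hasDerivAt s (hx s)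
  have hconst := is_const_of_deriv_eq_zero (f := fun s => Φ (x s))
    (fun s => (hd s).differentiableAt) (fun s => by
      rw [(hd s).deriv]
      exact hφ' _ (hS s)) t 0
  have : φ (x t) = φ (x 0) := hconst
  rw [map_sub, this, sub_self]

/-- Uniqueness of solutions on `[0, τ)` for a locally Lipschitz autonomous field. -/
theorem unique_Ico {E : Type*} [NormedAddCommGroup E] [NormedSpace ℝ E]
    {f : E → E} (hf : LocallyLipschitz f) {z x : ℝ → E} {τ : ℝ}
    (hz : IsIntegralCurveOn z (fun _ => f) (Ico 0 τ))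
    (hx : IsIntegralCurveOn x (fun _ => f) (Ico 0 τ)) (h0 : z 0 = x 0) :
    EqOn z x (Ico 0 τ) := by
  intro t1 ht1
  have hsub : Icc 0 t1 ⊆ Ico 0 τ := fun s hs => ⟨hs.1, lt_of_le_of_lt hs.2 ht1.2⟩
  have hzc : ContinuousOn z (Icc 0 t1) := hz.continuousOn.mono hsub
  have hxc : ContinuousOn x (Icc 0 t1) := hx.continuousOn.mono hsub
  set s : Set E := z '' Icc 0 t1 ∪ x '' Icc 0 t1 with hs
  have hcomp : IsCompact s := (isCompact_Icc.image_of_continuousOn hzc).union
    (isCompact_Icc.image_of_continuousOn hxc)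
  obtain ⟨K, hK⟩ := (hf.locallyLipschitzOn (s := s)).exists_lipschitzOnWith_of_compact hcomp
  have hnhds : ∀ t ∈ Ico 0 t1, Ico 0 τ ∈ 𝓝[Ici t] t := by
    intro t ht
    exact mem_of_superset (Ico_mem_nhdsGE (lt_of_lt_of_le ht.2 ht1.2.le))
      (Ico_subset_Ico_left ht.1)
  exact ODE_solution_unique_of_mem_Icc_right (v := fun _ => f) (s := fun _ => s) (K := K)
    (fun _ _ => hK) hzc
    (fun t ht => (hz t (hsub (Ico_subset_Icc_self ht))).mono_of_mem_nhdsWithin (hnhds t ht))
    (fun t ht => Or.inl (mem_image_of_mem _ (Ico_subset_Icc_self ht))) hxc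
    (fun t ht => (hx t (hsub (Ico_subset_Icc_self ht))).mono_of_mem_nhdsWithin (hnhds t ht))
    (fun t ht => Or.inr (mem_image_of_mem _ (Ico_subset_Icc_self ht))) h0 ⟨ht1.1, le_rfl⟩

end Vale.Agent.Lib.P072
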