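import Vale.Agent.Lib.P072.Geom
import Vale.Agent.Lib.P072.Ode

namespace Vale.Agent.Lib.P072

open Set Filter Topology
open scoped NNReal

variable {d : ℕ}

lemma exists_neg_bound {X : Type*} [TopologicalSpace X] {Q : Set X} (hQ : IsCompact Q)
    {g : X → ℝ} (hg : ContinuousOn g Q) (hneg : ∀ w ∈ Q, g w < 0) :
    ∃ η : ℝ, 0 < η ∧ ∀ w ∈ Q, g w ≤ -η := by
  rcases Q.eq_empty_or_nonempty with h | h
  · exact ⟨1, one_pos, by simp [h]⟩
  · obtain ⟨w0, hw0, hmax⟩ := hQ.exists_isMaxOn h hg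
    refine ⟨-g w0, by linarith [hneg w0 hw0], fun w hw => ?_⟩
    have := isMaxOn_iff.mp hmax w hw
    linarith

section

variable {N : Network d} {k : (Fin d → ℕ) × (Fin d → ℕ) → ℝ} {m : ℕ}
  {v : Fin m → Fin d → ℝ} {κ : (Fin d → ℕ) → Fin m} {lam : (Fin d → ℕ) × (Fin d → ℕ) → ℝ}

theorem construct (hdisj : ∀ j j', j ≠ j' → ∀ i, v j i = 0 ∨ v j' i = 0)
    (hlam : ∀ r ∈ N.R, rvec r = lam r • v (κ r.1)) {Θ : ℝ} (hΘ : 0 < Θ)
    (hneg : ∀ j u, Θ ≤ ell (v j) u → hco N k κ lam j (ex u) < 0)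
    (hpos : ∀ j u, ell (v j) u ≤ -Θ → 0 < hco N k κ lam j (ex u))
    (γ u0 : Fin d → ℝ) (hu0 : ex u0 - ex γ ∈ N.S) :
    ∃ u : ℝ → Fin d → ℝ, u 0 = u0 ∧
      (∀ t, 0 ≤ t → HasDerivAt (fun t => ex (u t)) (N.field k (ex (u t))) t) ∧
      (∀ t, ex (u t) - ex γ ∈ N.S) ∧
      ∃ T : ℝ, ∀ t, T ≤ t → ∀ j, |ell (v j) (u t)| ≤ Θ := by
  classical
  set M1 : ℝ := Θ + ∑ j, |ell (v j) u0| with hM1
  obtain ⟨B1, hB1, hB⟩ := coord_bound hdisj γ M1
  set ρ : ℝ := B1 + ‖γ‖ + 1 with hρ
  have hρpos : 0 < ρ := by positivity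
  let χ : ContDiffBump (0 : Fin d → ℝ) := ⟨ρ, ρ + 1, hρpos, by linarith⟩
  set G : (Fin d → ℝ) → Fin d → ℝ := fun u => χ u • logField N k u with hG
  have hGc : ContDiff ℝ 1 G := χ.contDiff.smul (contDiff_logField N k)
  have hGs : HasCompactSupport G := χ.hasCompactSupport.smul_right
  obtain ⟨K, hK⟩ := hGc.lipschitzWith_of_hasCompactSupport hGs one_ne_zero
  obtain ⟨L, hL⟩ := hGs.exists_bound_of_continuous hGc.continuous
  have hL' : ∀ x, ‖G x‖ ≤ (L.toNNReal : ℝ) := fun x => (hL x).trans (Real.le_coe_toNNReal L)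
  obtain ⟨u, hu0', hu⟩ := global_flow hK hL' u0
  have hui : ∀ t i, HasDerivAt (fun t => u t i) (G (u t) i) t := fun t i =>
    (hasDerivAt_pi.1 (hu t)) i
  have hell : ∀ j t, HasDerivAt (fun t => ell (v j) (u t))
      (χ (u t) * (hco N k κ lam j (ex (u t)) * qw (v j) (u t))) t := by
    intro j t
    have h1 : HasDerivAt (fun t => ∑ i, v j i * u t i) (∑ i, v j i * G (u t) i) t :=
      HasDerivAt.fun_sum (fun i _ => (hui t i).const_mul _)
    have h2 : ∑ i, v j i * G (u t) i = χ (u t) * ell (v j) (logField N k (u t)) := by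
      simp only [hG, ell, Finset.mul_sum, Pi.smul_apply, smul_eq_mul]
      refine Finset.sum_congr rfl fun i _ => by ring
    rw [h2, ell_logField hdisj hlam] at h1
    exact h1
  have hx : ∀ t, HasDerivAt (fun t => ex (u t)) (χ (u t) • N.field k (ex (u t))) t := by
    intro t
    rw [hasDerivAt_pi]
    intro i
    have h1 := (hui t i).exp
    have h2 : Real.exp (u t i) * G (u t) i = (χ (u t) • N.field k (ex (u t))) i := by
      simp only [hG, logField, Pi.smul_apply, smul_eq_mul]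
      have h3 : Real.exp (u t i) * Real.exp (-u t i) = 1 := by
        rw [← Real.exp_add]; simp
      calc Real.exp (u t i) * (χ (u t) * (Real.exp (-u t i) * N.field k (ex (u t)) i))
          = (Real.exp (u t i) * Real.exp (-u t i)) * (χ (u t) * N.field k (ex (u t)) i) := by ring
        _ = χ (u t) * N.field k (ex (u t)) i := by rw [h3, one_mul]
    rw [h2] at h1
    exact h1
  have hS : ∀ t, ex (u t) - ex γ ∈ N.S := by
    intro t
    have h1 := sub_mem_of_deriv_mem N.S hx (fun t => N.S.smul_mem _ (field_mem_S N k _)) t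
    have h2 : ex (u t) - ex γ = (ex (u t) - ex (u 0)) + (ex u0 - ex γ) := by
      rw [hu0']; abel
    rw [h2]
    exact N.S.add_mem h1 hu0
  have hinit : ∀ j, |ell (v j) u0| ≤ M1 := by
    intro j
    have := Finset.single_le_sum (f := fun j => |ell (v j) u0|) (fun i _ => abs_nonneg _)
      (Finset.mem_univ j)
    simp only [hM1]
    linarith
  have hΘM : Θ ≤ M1 := by
    have : 0 ≤ ∑ j, |ell (v j) u0| := by positivity
    simp only [hM1]
    linarith
  have hub : ∀ j t, 0 ≤ t → ell (v j) (u t) ≤ M1 := by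
    intro j
    refine barrier (a := 0) (Θ := Θ) (M := M1) (fun t _ => hell j t) (fun t _ h => ?_) ?_ hΘM
    · exact mul_nonpos_of_nonneg_of_nonpos χ.nonneg
        (mul_nonpos_of_nonpos_of_nonneg (hneg j _ h).le (qw_nonneg _ _))
    · rw [hu0']
      exact (le_abs_self _).trans (hinit j)
  have hlb : ∀ j t, 0 ≤ t → -ell (v j) (u t) ≤ M1 := by
    intro j
    refine barrier (a := 0) (Θ := Θ) (M := M1) (fun t _ => (hell j t).neg) (fun t _ h => ?_) ?_ hΘM
    · have h1 := hpos j (u t) (by linarith)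
      have h2 : 0 ≤ χ (u t) * (hco N k κ lam j (ex (u t)) * qw (v j) (u t)) :=
        mul_nonneg χ.nonneg (mul_nonneg h1.le (qw_nonneg _ _))
      linarith
    · rw [hu0']
      exact (neg_le_abs _).trans (hinit j)
  have hball : ∀ t, 0 ≤ t → u t ∈ Metric.closedBall (0 : Fin d → ℝ) ρ := by
    intro t ht
    rw [mem_closedBall_zero_iff, pi_norm_le_iff_of_nonneg hρpos.le]
    intro i
    have h1 := hB (u t) (S_le_span hlam (hS t))
      (fun j => abs_le.mpr ⟨by linarith [hlb j t ht], hub j t ht⟩) i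
    have h2 : ‖γ i‖ ≤ ‖γ‖ := norm_le_pi_norm γ i
    rw [Real.norm_eq_abs] at h2 ⊢
    have h3 : |u t i| ≤ |u t i - γ i| + |γ i| := by
      have := abs_add_le (u t i - γ i) (γ i)
      simpa using this
    simp only [hρ]
    linarith
  have hχ : ∀ t, 0 ≤ t → χ (u t) = 1 := fun t ht => χ.one_of_mem_closedBall (hball t ht)
  have hTp : ∀ j, ∃ T : ℝ, 0 ≤ T ∧ ∀ t, T ≤ t → ell (v j) (u t) ≤ Θ := by
    intro j
    have hQ : IsCompact (Metric.closedBall (0 : Fin d → ℝ) ρ ∩ {w | Θ ≤ ell (v j) w}) :=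
      (isCompact_closedBall _ _).inter_right (isClosed_le continuous_const (continuous_ell _))
    obtain ⟨η, hη, hbd⟩ := exists_neg_bound hQ
      (g := fun w => hco N k κ lam j (ex w) * qw (v j) w)
      ((continuous_hco j).mul (continuous_qw _)).continuousOn
      (fun w hw => mul_neg_of_neg_of_pos (hneg j w hw.2)
        (qw_pos (by have : Θ ≤ ell (v j) w := hw.2; linarith)))
    refine entrance hη (fun t _ => hell j t) (fun t ht h => ?_)
    rw [hχ t ht, one_mul]
    exact hbd (u t) ⟨hball t ht, h⟩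
  have hTm : ∀ j, ∃ T : ℝ, 0 ≤ T ∧ ∀ t, T ≤ t → -ell (v j) (u t) ≤ Θ := by
    intro j
    have hQ : IsCompact (Metric.closedBall (0 : Fin d → ℝ) ρ ∩ {w | ell (v j) w ≤ -Θ}) :=
      (isCompact_closedBall _ _).inter_right (isClosed_le (continuous_ell _) continuous_const)
    obtain ⟨η, hη, hbd⟩ := exists_neg_bound hQ
      (g := fun w => -(hco N k κ lam j (ex w) * qw (v j) w))
      ((continuous_hco j).mul (continuous_qw _)).neg.continuousOn
      (fun w hw => by
        have h1 : ell (v j) w ≤ -Θ := hw.2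
        have := mul_pos (hpos j w h1) (qw_pos (w := v j) (u := w) (by linarith))
        linarith)
    refine entrance hη (fun t _ => (hell j t).neg) (fun t ht h => ?_)
    rw [hχ t ht, one_mul]
    exact hbd (u t) ⟨hball t ht, by show ell (v j) (u t) ≤ -Θ; linarith⟩
  choose Tp hTp0 hTp using hTp
  choose Tm hTm0 hTm using hTm
  refine ⟨u, hu0', fun t ht => ?_, hS, ∑ j, (Tp j + Tm j), fun t ht j => ?_⟩
  · have := hx t
    rwa [hχ t ht, one_smul] at this
  · have h1 : Tp j + Tm j ≤ ∑ j, (Tp j + Tm j) :=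
      Finset.single_le_sum (f := fun j => Tp j + Tm j)
        (fun i _ => add_nonneg (hTp0 i) (hTm0 i)) (Finset.mem_univ j)
    have h2 := hTp j t (by linarith [hTm0 j])
    have h3 := hTm j t (by linarith [hTp0 j])
    exact abs_le.mpr ⟨by linarith, h2⟩

end

end Vale.Agent.Lib.P072
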