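import Vale.Agent.Lib.P072.Defs

namespace Vale.Agent.Lib.P072

open Set

variable {d : ℕ}

/-- The linear form `u ↦ ∑ i, w i * u i`. -/
def ell (w u : Fin d → ℝ) : ℝ := ∑ i, w i * u i

/-- Coordinatewise exponential. -/
noncomputable def ex (u : Fin d → ℝ) : Fin d → ℝ := fun i => Real.exp (u i)

lemma mon_ex (y : Fin d → ℕ) (u : Fin d → ℝ) :
    mon y (ex u) = Real.exp (∑ i, (y i : ℝ) * u i) := by
  simp [mon, ex, ← Real.exp_nat_mul, Real.exp_sum]

lemma mon_ex_pos (y : Fin d → ℕ) (u : Fin d → ℝ) : 0 < mon y (ex u) := by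
  rw [mon_ex]; exact Real.exp_pos _

/-- Coefficient of the direction `j` in the mass-action field. -/
noncomputable def hco (N : Network d) (k : (Fin d → ℕ) × (Fin d → ℕ) → ℝ) {m : ℕ}
    (κ : (Fin d → ℕ) → Fin m) (lam : (Fin d → ℕ) × (Fin d → ℕ) → ℝ) (j : Fin m)
    (x : Fin d → ℝ) : ℝ :=
  ∑ r ∈ N.R with κ r.1 = j, k r * lam r * mon r.1 x

section

variable {N : Network d} {k : (Fin d → ℕ) × (Fin d → ℕ) → ℝ} {m : ℕ}
  {v : Fin m → Fin d → ℝ} {κ : (Fin d → ℕ) → Fin m} {lam : (Fin d → ℕ) × (Fin d → ℕ) → ℝ}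

lemma lam_ne_zero (hlam : ∀ r ∈ N.R, rvec r = lam r • v (κ r.1))
    {r : (Fin d → ℕ) × (Fin d → ℕ)} (hr : r ∈ N.R) : lam r ≠ 0 := by
  intro h0
  have h1 := hlam r hr
  rw [h0, zero_smul] at h1
  apply (N.mem r hr).2.2
  funext i
  have h2 := congrFun h1 i
  simp only [rvec, Pi.zero_apply] at h2
  have h3 : (r.2 i : ℝ) = (r.1 i : ℝ) := by linarith
  exact_mod_cast h3.symm

lemma partner (hWR : N.WeaklyReversible) (hκ : ∀ r ∈ N.R, κ r.1 = κ r.2)
    (hlam : ∀ r ∈ N.R, rvec r = lam r • v (κ r.1))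
    {r : (Fin d → ℕ) × (Fin d → ℕ)} (hr : r ∈ N.R) (hpos : 0 < lam r) :
    ∃ r' ∈ N.R, κ r'.1 = κ r.1 ∧ lam r' < 0 ∧ ∃ μ : ℝ, lam r ≤ μ ∧
      ∀ i, (r'.1 i : ℝ) - (r.1 i : ℝ) = μ * v (κ r.1) i := by
  have key : ∀ y, Relation.ReflTransGen N.Step r.2 y →
      (∃ r' ∈ N.R, κ r'.1 = κ r.1 ∧ lam r' < 0 ∧ ∃ μ : ℝ, lam r ≤ μ ∧
        ∀ i, (r'.1 i : ℝ) - (r.1 i : ℝ) = μ * v (κ r.1) i) ∨
      (κ y = κ r.1 ∧ ∃ μ : ℝ, lam r ≤ μ ∧ ∀ i, (y i : ℝ) - (r.1 i : ℝ) = μ * v (κ r.1) i) := by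
    intro y hy
    induction hy with
    | refl =>
      right
      refine ⟨(hκ r hr).symm, lam r, le_rfl, fun i => ?_⟩
      have := congrFun (hlam r hr) i
      simpa [rvec] using this
    | tail hab hbc ih =>
      rename_i b c
      rcases ih with h | ⟨hκb, μ, hμ, hb⟩
      · exact Or.inl h
      · have hbc' : (b, c) ∈ N.R := hbc
        by_cases hneg : lam (b, c) < 0
        · exact Or.inl ⟨(b, c), hbc', hκb, hneg, μ, hμ, hb⟩
        · right
          have h1 := hκ _ hbc'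
          simp only at h1
          refine ⟨h1 ▸ hκb, μ + lam (b, c), by linarith [not_lt.mp hneg], fun i => ?_⟩
          have h2 := congrFun (hlam _ hbc') i
          simp only [rvec, Pi.smul_apply, smul_eq_mul, hκb] at h2
          have h3 := hb i
          linarith
  rcases key r.1 (hWR r hr) with h | ⟨-, μ, hμ, h0⟩
  · exact h
  · exfalso
    have hμ0 : μ ≠ 0 := by linarith
    have hv : v (κ r.1) = 0 := by
      funext i
      have := h0 i
      simp only [sub_self] at this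
      rcases mul_eq_zero.mp this.symm with h | h
      · exact absurd h hμ0
      · simpa using h
    have h1 := hlam r hr
    rw [hv, smul_zero] at h1
    apply (N.mem r hr).2.2
    funext i
    have h2 := congrFun h1 i
    simp only [rvec, Pi.zero_apply] at h2
    have h3 : (r.2 i : ℝ) = (r.1 i : ℝ) := by linarith
    exact_mod_cast h3.symm

lemma dominate (hWR : N.WeaklyReversible) (hk : ∀ r ∈ N.R, 0 < k r)
    (hκ : ∀ r ∈ N.R, κ r.1 = κ r.2)
    (hlam : ∀ r ∈ N.R, rvec r = lam r • v (κ r.1)) (Cst : ℝ)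
    {r : (Fin d → ℕ) × (Fin d → ℕ)} (hr : r ∈ N.R) (hpos : 0 < lam r) :
    ∃ Θ : ℝ, ∃ r' ∈ N.R, κ r'.1 = κ r.1 ∧ lam r' < 0 ∧ ∀ u : Fin d → ℝ,
      Θ ≤ ell (v (κ r.1)) u →
        Cst * (k r * lam r * mon r.1 (ex u)) ≤ k r' * (-lam r') * mon r'.1 (ex u) := by
  obtain ⟨r', hr', hκ', hneg, μ, hμ, hdiff⟩ := partner hWR hκ hlam hr hpos
  have hμpos : 0 < μ := lt_of_lt_of_le hpos hμ
  have hB : 0 < k r' * (-lam r') := mul_pos (hk r' hr') (by linarith)
  refine ⟨Cst * (k r * lam r) / (k r' * (-lam r') * μ), r', hr', hκ', hneg, fun u hu => ?_⟩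
  have hmon : mon r'.1 (ex u) = mon r.1 (ex u) * Real.exp (μ * ell (v (κ r.1)) u) := by
    rw [mon_ex, mon_ex, ← Real.exp_add]
    congr 1
    rw [ell, Finset.mul_sum, ← Finset.sum_add_distrib]
    refine Finset.sum_congr rfl fun i _ => ?_
    have := hdiff i
    have h2 : (r'.1 i : ℝ) = (r.1 i : ℝ) + μ * v (κ r.1) i := by linarith
    rw [h2]; ring
  rw [hmon]
  have h1 : Cst * (k r * lam r) ≤ k r' * (-lam r') * (μ * ell (v (κ r.1)) u) := by
    rw [div_le_iff₀ (mul_pos hB hμpos)] at hu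
    nlinarith
  have h2 : μ * ell (v (κ r.1)) u ≤ Real.exp (μ * ell (v (κ r.1)) u) := by
    linarith [Real.add_one_le_exp (μ * ell (v (κ r.1)) u)]
  have h3 : Cst * (k r * lam r) ≤ k r' * (-lam r') * Real.exp (μ * ell (v (κ r.1)) u) :=
    h1.trans (mul_le_mul_of_nonneg_left h2 hB.le)
  have h4 := mul_le_mul_of_nonneg_right h3 (mon_ex_pos r.1 u).le
  nlinarith

/-- Key sign lemma: far out in the direction `v j` the coefficient of `v j` is negative. -/
theorem sign_neg (hWR : N.WeaklyReversible) (hk : ∀ r ∈ N.R, 0 < k r)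
    (hκ : ∀ r ∈ N.R, κ r.1 = κ r.2)
    (hlam : ∀ r ∈ N.R, rvec r = lam r • v (κ r.1)) :
    ∃ Θ : ℝ, 0 < Θ ∧ ∀ (j : Fin m) (u : Fin d → ℝ), (∃ r ∈ N.R, κ r.1 = j) →
      Θ ≤ ell (v j) u → hco N k κ lam j (ex u) < 0 := by
  classical
  set n : ℝ := (N.R.card : ℝ) with hn
  have h1 : ∀ r ∈ N.R, ∃ Θ : ℝ, 0 < lam r → ∃ r' ∈ N.R, κ r'.1 = κ r.1 ∧ lam r' < 0 ∧
      ∀ u : Fin d → ℝ, Θ ≤ ell (v (κ r.1)) u →
        (n + 1) * (k r * lam r * mon r.1 (ex u)) ≤ k r' * (-lam r') * mon r'.1 (ex u) := by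
    intro r hr
    by_cases hpos : 0 < lam r
    · obtain ⟨Θ, h⟩ := dominate hWR hk hκ hlam (n + 1) hr hpos
      exact ⟨Θ, fun _ => h⟩
    · exact ⟨0, fun h => absurd h hpos⟩
  choose! Θf hΘf using h1
  refine ⟨1 + ∑ r ∈ N.R, |Θf r|, by positivity, ?_⟩
  rintro j u ⟨r₀, hr₀, hr₀j⟩ hu
  have hΘle : ∀ r ∈ N.R, Θf r ≤ 1 + ∑ r ∈ N.R, |Θf r| := by
    intro r hr
    have := Finset.single_le_sum (f := fun r => |Θf r|) (fun i _ => abs_nonneg _) hr
    have h2 := le_abs_self (Θf r)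
    linarith
  set Rj := N.R.filter (fun r => κ r.1 = j) with hRj
  set A : ℝ := ∑ r ∈ Rj with ¬ (0 < lam r), k r * (-lam r) * mon r.1 (ex u) with hA
  have hterm_nonneg : ∀ r ∈ Rj.filter (fun r => ¬ (0 < lam r)),
      0 ≤ k r * (-lam r) * mon r.1 (ex u) := by
    intro r hr
    simp only [hRj, Finset.mem_filter] at hr
    have := hk r hr.1.1
    have h3 := mon_ex_pos r.1 u
    have h4 : 0 ≤ -lam r := by linarith [not_lt.mp hr.2]
    positivity
  have hle_A : ∀ r' ∈ N.R, κ r'.1 = j → lam r' < 0 →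
      k r' * (-lam r') * mon r'.1 (ex u) ≤ A := by
    intro r' hr' hj hneg
    have hmem : r' ∈ Rj.filter (fun r => ¬ (0 < lam r)) := by
      simp only [hRj, Finset.mem_filter]
      exact ⟨⟨hr', hj⟩, by linarith⟩
    exact Finset.single_le_sum (f := fun r => k r * (-lam r) * mon r.1 (ex u)) hterm_nonneg hmem
  have hpos_term : ∀ r' ∈ N.R, lam r' < 0 → 0 < k r' * (-lam r') * mon r'.1 (ex u) := by
    intro r' hr' hneg
    have := hk r' hr'
    have h3 := mon_ex_pos r'.1 u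
    have h4 : 0 < -lam r' := by linarith
    positivity
  have hU : ∀ r ∈ Rj.filter (fun r => 0 < lam r),
      (n + 1) * (k r * lam r * mon r.1 (ex u)) ≤ A := by
    intro r hr
    simp only [hRj, Finset.mem_filter] at hr
    obtain ⟨⟨hrR, hrj⟩, hpos⟩ := hr
    obtain ⟨r', hr', hκ', hneg, h⟩ := hΘf r hrR hpos
    have h5 := h u (by rw [hrj]; exact (hΘle r hrR).trans hu)
    exact h5.trans (hle_A r' hr' (hκ'.trans hrj) hneg)
  have hApos : 0 < A := by
    rcases lt_trichotomy (lam r₀) 0 with h | h | h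
    · exact lt_of_lt_of_le (hpos_term r₀ hr₀ h) (hle_A r₀ hr₀ hr₀j h)
    · exact absurd h (lam_ne_zero hlam hr₀)
    · obtain ⟨r', hr', hκ', hneg, -⟩ := hΘf r₀ hr₀ h
      exact lt_of_lt_of_le (hpos_term r' hr' hneg) (hle_A r' hr' (hκ'.trans hr₀j) hneg)
  have hsplit : hco N k κ lam j (ex u) =
      (∑ r ∈ Rj with 0 < lam r, k r * lam r * mon r.1 (ex u)) - A := by
    rw [hco, ← Finset.sum_filter_add_sum_filter_not Rj (fun r => 0 < lam r), hA, sub_eq_add_neg,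
      ← Finset.sum_neg_distrib]
    congr 1
    refine Finset.sum_congr rfl fun r _ => by ring
  have hsumU : (n + 1) * (∑ r ∈ Rj with 0 < lam r, k r * lam r * mon r.1 (ex u)) ≤ n * A := by
    rw [Finset.mul_sum]
    calc ∑ r ∈ Rj with 0 < lam r, (n + 1) * (k r * lam r * mon r.1 (ex u))
        ≤ ∑ _r ∈ Rj with 0 < lam _r, A := Finset.sum_le_sum hU
      _ = ((Rj.filter (fun r => 0 < lam r)).card : ℝ) * A := by simp
      _ ≤ n * A := by
        apply mul_le_mul_of_nonneg_right _ hApos.le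
        rw [hn]
        exact_mod_cast (Finset.card_le_card ((Finset.filter_subset _ _).trans
          (Finset.filter_subset _ _)))
  have hn0 : 0 ≤ n := by rw [hn]; positivity
  rw [hsplit]
  nlinarith

/-- The mirrored sign lemma. -/
theorem sign_pos (hWR : N.WeaklyReversible) (hk : ∀ r ∈ N.R, 0 < k r)
    (hκ : ∀ r ∈ N.R, κ r.1 = κ r.2)
    (hlam : ∀ r ∈ N.R, rvec r = lam r • v (κ r.1)) :
    ∃ Θ : ℝ, 0 < Θ ∧ ∀ (j : Fin m) (u : Fin d → ℝ), (∃ r ∈ N.R, κ r.1 = j) →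
      ell (v j) u ≤ -Θ → 0 < hco N k κ lam j (ex u) := by
  obtain ⟨Θ, hΘ, h⟩ := sign_neg (v := fun j => -v j) (lam := fun r => -lam r) hWR hk hκ
    (fun r hr => by rw [hlam r hr]; simp)
  refine ⟨Θ, hΘ, fun j u hj hu => ?_⟩
  have h1 := h j u hj (by
    have : ell (-v j) u = -ell (v j) u := by simp [ell]
    rw [this]; linarith)
  have h2 : hco N k κ (fun r => -lam r) j (ex u) = -hco N k κ lam j (ex u) := by
    simp [hco]
  rw [h2] at h1
  linarith

end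

end Vale.Agent.Lib.P072
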